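import Vale.Agent.Lib.P162.Final

open Finset

namespace Vale.Agent.Results.P162.MixDSquared

open Vale.Agent.P162

/-- The mixing time of the Thorp shuffle of `2 * m` cards. -/
noncomputable def thorpMix (m : ℕ) : ℕ := sInf {t : ℕ | thorpTV m t ≤ 1 / 4}

/-- There is an absolute constant `C` such that the mixing time of the Thorp shuffle of `2 ^ d` cards
is at most `C * d ^ 2`, for every `d ≥ 1`; and the distance is at most `1 / 4` from the mixing time on. -/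
theorem result : ∃ C : ℝ, 0 < C ∧ ∀ d : ℕ, 1 ≤ d →
    (thorpMix (2 ^ (d - 1)) : ℝ) ≤ C * (d : ℝ) ^ 2 ∧
    ∀ t : ℕ, thorpMix (2 ^ (d - 1)) ≤ t → thorpTV (2 ^ (d - 1)) t ≤ 1 / 4 := by
  obtain ⟨C, hC, h⟩ := thorp_main
  refine ⟨C + 1, by positivity, fun d hd => ?_⟩
  have hd1 : (1 : ℝ) ≤ d := by exact_mod_cast hd
  have hmem : ⌈C * (d : ℝ) ^ 2⌉₊ ∈ {t : ℕ | thorpTV (2 ^ (d - 1)) t ≤ 1 / 4} :=
    h d hd _ (Nat.le_ceil _)
  constructor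
  · have h1 : thorpMix (2 ^ (d - 1)) ≤ ⌈C * (d : ℝ) ^ 2⌉₊ := Nat.sInf_le hmem
    have h2 : (thorpMix (2 ^ (d - 1)) : ℝ) ≤ (⌈C * (d : ℝ) ^ 2⌉₊ : ℝ) := by exact_mod_cast h1
    have h3 : (⌈C * (d : ℝ) ^ 2⌉₊ : ℝ) < C * (d : ℝ) ^ 2 + 1 :=
      Nat.ceil_lt_add_one (by positivity)
    have h4 : (1 : ℝ) ≤ (d : ℝ) ^ 2 := one_le_pow₀ hd1
    linarith
  · intro t ht
    have h5 : thorpMix (2 ^ (d - 1)) ∈ {t : ℕ | thorpTV (2 ^ (d - 1)) t ≤ 1 / 4} :=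
      Nat.sInf_mem ⟨_, hmem⟩
    exact (thorpTV_antitone ht).trans h5

end Vale.Agent.Results.P162.MixDSquared
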